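import Vale.Agent.P062.Main

/-!
# P062, Q1: Maker wins the Snaky achievement game on the empty board, without handicap
-/

namespace Vale.Agent.Results.P062.MakerWins

open _root_.P062

/-- **Maker wins Snaky.** On the initially empty board `ℤ²`, with no handicap, Maker (who moves
first) has a strategy `σ` and a number `N` such that against every legal play of Breaker all
moves of Maker are legal and after at most `N` of its moves Maker owns all cells of an allowed
copy of Snaky. -/
theorem result : ∃ (N : ℕ) (σ : List Cell → Cell), WinsWithin σ N :=
  maker_wins

end Vale.Agent.Results.P062.MakerWins
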